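import Vale.Agent.Lib.P199.Final

namespace Vale.Agent.Results.P199.A_main

universe u

/-- Kurosh's problem has a positive answer when the centre `F` of the division ring is uncountable
and has a finite extension `L` all of whose finite extensions have trivial Brauer group.  Moreover
`D` then has dimension `r ^ 2` over `F` with `r` dividing `[L : F]`. -/
theorem result {F D L : Type u} [Field F] [DivisionRing D] [Algebra F D] [Algebra.IsCentral F D]
    [Algebra.IsAlgebraic F D] (hF : Uncountable F) [Field L] [Algebra F L] [FiniteDimensional F L]
    (hL : ∀ (L' Δ : Type u) [Field L'] [Algebra L L'] [FiniteDimensional L L'] [DivisionRing Δ]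
      [Algebra L' Δ] [FiniteDimensional L' Δ] (x y : Δ), x * y = y * x) :
    ∃ r : ℕ, r ∣ Module.finrank F L ∧ FiniteDimensional F D ∧ Module.finrank F D = r ^ 2 :=
  Vale.Agent.Lib.P199.finite_of_virtually_trivial_brauer hF L hL

end Vale.Agent.Results.P199.A_main
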